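import Mathlib

/-!
Single-fold Diophantine representations: basic definitions.
-/

namespace Vale.Agent.Lib.P345

open MvPolynomial

/-- The value of the integer polynomial `P` at natural parameters `a` and natural
witnesses `w`. -/
noncomputable def evalAt {α β : Type*} (P : MvPolynomial (α ⊕ β) ℤ) (a : α → ℕ) (w : β → ℕ) : ℤ :=
  MvPolynomial.eval (fun i => ((Sum.elim a w i : ℕ) : ℤ)) P

/-- `P` is a Diophantine representation of `S`. -/
def IsRep {n m : ℕ} (S : Set (Fin n → ℕ)) (P : MvPolynomial (Fin n ⊕ Fin m) ℤ) : Prop :=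
  ∀ a, a ∈ S ↔ ∃ w : Fin m → ℕ, evalAt P a w = 0

/-- `P` is single-fold: for all parameters there is at most one witness tuple. -/
def IsSingleFold {n m : ℕ} (P : MvPolynomial (Fin n ⊕ Fin m) ℤ) : Prop :=
  ∀ (a : Fin n → ℕ) (w w' : Fin m → ℕ), evalAt P a w = 0 → evalAt P a w' = 0 → w = w'

/-- `S` has a single-fold Diophantine representation. -/
def HasSingleFoldRep {n : ℕ} (S : Set (Fin n → ℕ)) : Prop :=
  ∃ (m : ℕ) (P : MvPolynomial (Fin n ⊕ Fin m) ℤ), IsRep S P ∧ IsSingleFold P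

/-- Witnesses may be indexed by any finite type. -/
theorem hasSingleFoldRep_of_fintype {n : ℕ} {β : Type*} [Fintype β] (S : Set (Fin n → ℕ))
    (P : MvPolynomial (Fin n ⊕ β) ℤ)
    (hrep : ∀ a, a ∈ S ↔ ∃ w : β → ℕ, evalAt P a w = 0)
    (hsf : ∀ (a : Fin n → ℕ) (w w' : β → ℕ), evalAt P a w = 0 → evalAt P a w' = 0 → w = w') :
    HasSingleFoldRep S := by
  classical
  let e : β ≃ Fin (Fintype.card β) := Fintype.equivFin β
  let Q : MvPolynomial (Fin n ⊕ Fin (Fintype.card β)) ℤ := rename (Sum.map id e) P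
  have hQ : ∀ (a : Fin n → ℕ) (w : Fin (Fintype.card β) → ℕ),
      evalAt Q a w = evalAt P a (w ∘ e) := by
    intro a w
    simp only [evalAt, Q, eval_rename]
    congr 2
    funext i
    rcases i with i | i <;> simp
  refine ⟨Fintype.card β, Q, ?_, ?_⟩
  · intro a
    rw [hrep a]
    constructor
    · rintro ⟨w, hw⟩
      refine ⟨w ∘ e.symm, ?_⟩
      rw [hQ]
      have : (w ∘ e.symm) ∘ e = w := by funext i; simp
      rw [this, hw]
    · rintro ⟨w, hw⟩
      exact ⟨w ∘ e, by rw [← hQ, hw]⟩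
  · intro a w w' hw hw'
    rw [hQ] at hw hw'
    have := hsf a _ _ hw hw'
    funext i
    have h2 := congrFun this (e.symm i)
    simpa using h2

end Vale.Agent.Lib.P345
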