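import Vale.Agent.Lib.P345.Pairing

/-!
A representation with exactly `c` witnesses for every member can be made single-fold.
-/

namespace Vale.Agent.Lib.P345

open MvPolynomial

variable {n m c : ℕ}

/-- Witness index type: `c + 1` copies of the old witnesses, and `c` slack variables. -/
abbrev NewW (m c : ℕ) : Type := (Fin (c + 1) × Fin m) ⊕ Fin c

/-- The new polynomial. -/
noncomputable def sortedPoly (P : MvPolynomial (Fin n ⊕ Fin m) ℤ) (c : ℕ) :
    MvPolynomial (Fin n ⊕ NewW m c) ℤ :=
  (∑ i : Fin (c + 1), (rename (Sum.map id (fun j => (Sum.inl (i, j) : NewW m c))) P) ^ 2) +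
  ∑ i : Fin c,
    (rename (fun j => (Sum.inr (Sum.inl (i.castSucc, j)) : Fin n ⊕ NewW m c)) (tupleCodePoly m)
      + X (Sum.inr (Sum.inr i)) + 1
      - rename (fun j => (Sum.inr (Sum.inl (i.succ, j)) : Fin n ⊕ NewW m c)) (tupleCodePoly m)) ^ 2

lemma evalAt_sortedPoly (P : MvPolynomial (Fin n ⊕ Fin m) ℤ) (c : ℕ) (a : Fin n → ℕ)
    (W : NewW m c → ℕ) :
    evalAt (sortedPoly P c) a W =
      (∑ i : Fin (c + 1), (evalAt P a (fun j => W (Sum.inl (i, j)))) ^ 2) +
      ∑ i : Fin c, ((tupleCode m (fun j => W (Sum.inl (i.castSucc, j))) : ℤ) + (W (Sum.inr i) : ℤ)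
        + 1 - (tupleCode m (fun j => W (Sum.inl (i.succ, j))) : ℤ)) ^ 2 := by
  simp only [evalAt, sortedPoly, map_add, map_sum, map_pow, map_sub, map_one, eval_rename, eval_X]
  congr 1
  · apply Finset.sum_congr rfl
    intro i _
    congr 3
    funext x
    rcases x with x | x <;> simp
  · apply Finset.sum_congr rfl
    intro i _
    rw [← eval_tupleCodePoly, ← eval_tupleCodePoly]
    rfl

lemma evalAt_sortedPoly_eq_zero_iff (P : MvPolynomial (Fin n ⊕ Fin m) ℤ) (c : ℕ)
    (a : Fin n → ℕ) (W : NewW m c → ℕ) :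
    evalAt (sortedPoly P c) a W = 0 ↔
      (∀ i : Fin (c + 1), evalAt P a (fun j => W (Sum.inl (i, j))) = 0) ∧
      ∀ i : Fin c, tupleCode m (fun j => W (Sum.inl (i.castSucc, j))) + W (Sum.inr i) + 1 =
        tupleCode m (fun j => W (Sum.inl (i.succ, j))) := by
  rw [evalAt_sortedPoly]
  have h1 : 0 ≤ ∑ i : Fin (c + 1), (evalAt P a (fun j => W (Sum.inl (i, j)))) ^ 2 :=
    Finset.sum_nonneg (fun i _ => sq_nonneg _)
  have h2 : 0 ≤ ∑ i : Fin c, ((tupleCode m (fun j => W (Sum.inl (i.castSucc, j))) : ℤ) +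
      (W (Sum.inr i) : ℤ) + 1 - (tupleCode m (fun j => W (Sum.inl (i.succ, j))) : ℤ)) ^ 2 :=
    Finset.sum_nonneg (fun i _ => sq_nonneg _)
  rw [add_eq_zero_iff_of_nonneg h1 h2,
    Finset.sum_eq_zero_iff_of_nonneg (fun i _ => sq_nonneg _),
    Finset.sum_eq_zero_iff_of_nonneg (fun i _ => sq_nonneg _)]
  simp only [Finset.mem_univ, forall_true_left, pow_eq_zero_iff, ne_eq, OfNat.ofNat_ne_zero,
    not_false_eq_true]
  apply and_congr Iff.rfl
  apply forall_congr'
  intro i
  rw [sub_eq_zero]
  exact_mod_cast Iff.rfl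

theorem hasSingleFoldRep_of_exact (S : Set (Fin n → ℕ)) (P : MvPolynomial (Fin n ⊕ Fin m) ℤ)
    (hrep : IsRep S P)
    (hfold : ∀ a ∈ S, {w : Fin m → ℕ | evalAt P a w = 0}.ncard = c + 1) :
    HasSingleFoldRep S := by
  classical
  -- the finite set of codes of the solutions
  have hfin : ∀ a ∈ S, {w : Fin m → ℕ | evalAt P a w = 0}.Finite := by
    intro a ha
    apply Set.finite_of_ncard_ne_zero
    rw [hfold a ha]
    exact Nat.succ_ne_zero c
  have hmono : ∀ (a : Fin n → ℕ) (W : NewW m c → ℕ), evalAt (sortedPoly P c) a W = 0 →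
      StrictMono (fun i : Fin (c + 1) => tupleCode m (fun j => W (Sum.inl (i, j)))) := by
    intro a W hW
    rw [evalAt_sortedPoly_eq_zero_iff] at hW
    rw [Fin.strictMono_iff_lt_succ]
    intro i
    have := hW.2 i
    omega
  apply hasSingleFoldRep_of_fintype S (sortedPoly P c)
  · intro a
    constructor
    · intro ha
      set T : Finset ℕ := (hfin a ha).toFinset.image (tupleCode m) with hT
      have hcard : T.card = c + 1 := by
        rw [hT, Finset.card_image_of_injective _ (tupleCode_injective m),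
          ← Set.ncard_eq_toFinset_card _ (hfin a ha), hfold a ha]
      have hex : ∀ i : Fin (c + 1), ∃ w : Fin m → ℕ, evalAt P a w = 0 ∧
          tupleCode m w = T.orderEmbOfFin hcard i := by
        intro i
        have hmem := Finset.orderEmbOfFin_mem T hcard i
        obtain ⟨w, hw, hw'⟩ := Finset.mem_image.mp hmem
        exact ⟨w, by simpa using hw, hw'⟩
      choose w hw hwc using hex
      refine ⟨Sum.elim (fun q => w q.1 q.2)
        (fun i => tupleCode m (w i.succ) - tupleCode m (w i.castSucc) - 1), ?_⟩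
      rw [evalAt_sortedPoly_eq_zero_iff]
      refine ⟨fun i => hw i, fun i => ?_⟩
      simp only [Sum.elim_inl, Sum.elim_inr]
      have hlt : tupleCode m (w i.castSucc) < tupleCode m (w i.succ) := by
        rw [hwc, hwc]
        exact (T.orderEmbOfFin hcard).strictMono Fin.castSucc_lt_succ
      have e1 : (fun j => w i.castSucc j) = w i.castSucc := rfl
      have e2 : (fun j => w i.succ j) = w i.succ := rfl
      rw [e1, e2]
      omega
    · rintro ⟨W, hW⟩
      rw [evalAt_sortedPoly_eq_zero_iff] at hW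
      exact (hrep a).mpr ⟨_, hW.1 0⟩
  · intro a W W' hW hW'
    have hW1 := (evalAt_sortedPoly_eq_zero_iff P c a W).mp hW
    have hW1' := (evalAt_sortedPoly_eq_zero_iff P c a W').mp hW'
    have ha : a ∈ S := (hrep a).mpr ⟨_, hW1.1 0⟩
    set T : Finset ℕ := (hfin a ha).toFinset.image (tupleCode m) with hT
    have hcard : T.card = c + 1 := by
      rw [hT, Finset.card_image_of_injective _ (tupleCode_injective m),
        ← Set.ncard_eq_toFinset_card _ (hfin a ha), hfold a ha]
    have hu : ∀ (V : NewW m c → ℕ), evalAt (sortedPoly P c) a V = 0 →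
        (fun i : Fin (c + 1) => tupleCode m (fun j => V (Sum.inl (i, j)))) =
          T.orderEmbOfFin hcard := by
      intro V hV
      apply Finset.orderEmbOfFin_unique hcard _ (hmono a V hV)
      intro i
      rw [hT, Finset.mem_image]
      refine ⟨_, ?_, rfl⟩
      simpa using ((evalAt_sortedPoly_eq_zero_iff P c a V).mp hV).1 i
    have heq : ∀ i : Fin (c + 1), (fun j => W (Sum.inl (i, j))) = fun j => W' (Sum.inl (i, j)) := by
      intro i
      apply tupleCode_injective m
      have h1 := congrFun (hu W hW) i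
      have h2 := congrFun (hu W' hW') i
      exact h1.trans h2.symm
    funext q
    rcases q with ⟨i, j⟩ | i
    · exact congrFun (heq i) j
    · have h1 := hW1.2 i
      have h2 := hW1'.2 i
      rw [heq i.castSucc, heq i.succ] at h1
      omega

end Vale.Agent.Lib.P345
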