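import Vale.Agent.Lib.P345.Basic

/-!
An injective integer polynomial `ℕ^m → ℕ`.
-/

namespace Vale.Agent.Lib.P345

open MvPolynomial

/-- Twice the Cantor pairing polynomial. -/
def cpair (x y : ℕ) : ℕ := (x + y) ^ 2 + 3 * x + y

lemma cpair_inj {x y x' y' : ℕ} (h : cpair x y = cpair x' y') : x = x' ∧ y = y' := by
  unfold cpair at h
  have hs : x + y = x' + y' := by
    rcases lt_trichotomy (x + y) (x' + y') with hlt | heq | hgt
    · exfalso
      have h1 : x + y + 1 ≤ x' + y' := hlt
      nlinarith [Nat.zero_le x, Nat.zero_le y, Nat.zero_le x', Nat.zero_le y']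
    · exact heq
    · exfalso
      have h1 : x' + y' + 1 ≤ x + y := hgt
      nlinarith [Nat.zero_le x, Nat.zero_le y, Nat.zero_le x', Nat.zero_le y']
  rw [hs] at h
  constructor <;> omega

/-- The injection `ℕ^m → ℕ`. -/
def tupleCode : (m : ℕ) → (Fin m → ℕ) → ℕ
  | 0, _ => 0
  | (m + 1), w => cpair (tupleCode m (fun i => w i.succ)) (w 0)

lemma tupleCode_injective (m : ℕ) : Function.Injective (tupleCode m) := by
  induction m with
  | zero =>
    intro w w' _
    funext i
    exact i.elim0
  | succ m ih =>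
    intro w w' h
    simp only [tupleCode] at h
    obtain ⟨h1, h2⟩ := cpair_inj h
    have h3 := ih h1
    funext i
    refine Fin.cases h2 (fun j => ?_) i
    exact congrFun h3 j

/-- The polynomial computing `tupleCode`. -/
noncomputable def tupleCodePoly : (m : ℕ) → MvPolynomial (Fin m) ℤ
  | 0 => 0
  | (m + 1) => (rename Fin.succ (tupleCodePoly m) + X 0) ^ 2
      + 3 * rename Fin.succ (tupleCodePoly m) + X 0

lemma eval_tupleCodePoly (m : ℕ) (w : Fin m → ℕ) :
    eval (fun i => ((w i : ℕ) : ℤ)) (tupleCodePoly m) = (tupleCode m w : ℤ) := by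
  induction m with
  | zero => simp [tupleCodePoly, tupleCode]
  | succ m ih =>
    have h := ih (fun i => w i.succ)
    simp only [tupleCodePoly, tupleCode, cpair, map_add, map_mul, map_pow, eval_rename, eval_X]
    have h2 : eval ((fun i => ((w i : ℕ) : ℤ)) ∘ Fin.succ) (tupleCodePoly m) =
        (tupleCode m (fun i => w i.succ) : ℤ) := h
    rw [h2]
    push_cast
    simp

end Vale.Agent.Lib.P345
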